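import Vale.Agent.Snaky.LData.All

/-!
# Snaky, unhandicapped: Breaker has at most one line of play
-/

namespace Vale.Agent.Results.P062.ForcedLine

open Vale.Agent.Snaky Vale.Agent.Snaky.LD

/-- Nine cells, relative to Maker's first cell `(0, 0)`: the only beginning of a game for Breaker, up to
the symmetries of the grid that fix `(0, 0)`, which the theorem leaves open. -/
def line : List Cell :=
  [(1, 0), (0, 2), (0, -1), (-1, -2), (-3, 0), (-1, 0), (-3, -3), (-1, -3), (-2, -4)]

/-- Breaker's claims are an image of `line` under a symmetry of the grid that fixes `(0, 0)`. -/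
def OnLine (l : List Cell) : Prop := ∃ R : Cell → Cell, IsSignedPerm R ∧ l = line.map R

theorem oct_bits : ∀ x < 17, ∀ y ≤ x, (x, y) ≠ (0, 0) → (x, y) ≠ (1, 0) →
    rootOct.testBit (239 + x + 32 * y) = true := by
  decide +kernel

theorem good_octant {c : Cell} (h0 : 0 ≤ c.2) (h1 : c.2 ≤ c.1) (h2 : c ≠ (0, 0))
    (h3 : c ≠ (1, 0)) : Good 15 c := by
  refine good_of_root cert_ok root_ok (by simp [rootT]) h2 ?_
  intro h4 h5
  obtain ⟨x, y⟩ := c
  simp only at h0 h1 h4 h5 ⊢
  obtain ⟨x, rfl⟩ := Int.eq_ofNat_of_zero_le (h0.trans h1)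
  obtain ⟨y, rfl⟩ := Int.eq_ofNat_of_zero_le h0
  refine ⟨by positivity, ?_⟩
  have e : ((239 : ℤ) + (x : ℤ) + 32 * (y : ℤ)).toNat = 239 + x + 32 * y := by omega
  rw [e]
  refine oct_bits x (by exact_mod_cast h4) y (by exact_mod_cast h1) ?_ ?_
  · intro h
    obtain ⟨rfl, rfl⟩ := Prod.mk.inj h
    exact h2 rfl
  · intro h
    obtain ⟨rfl, rfl⟩ := Prod.mk.inj h
    exact h3 rfl

theorem good_of_not_adjacent {b : Cell} (h0 : b ≠ (0, 0)) (h1 : |b.1| + |b.2| ≠ 1) :
    Good 15 b := by
  apply good_of_octant
  apply good_octant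
  · exact le_min (abs_nonneg _) (abs_nonneg _)
  · exact min_le_max
  · intro h
    have h2 : max |b.1| |b.2| = 0 := congrArg Prod.fst h
    have h3 : |b.1| ≤ 0 := h2 ▸ le_max_left _ _
    have h4 : |b.2| ≤ 0 := h2 ▸ le_max_right _ _
    exact h0 (Prod.ext (abs_nonpos_iff.1 h3) (abs_nonpos_iff.1 h4))
  · intro h
    have h2 : max |b.1| |b.2| = 1 := congrArg Prod.fst h
    have h3 : min |b.1| |b.2| = 0 := congrArg Prod.snd h
    apply h1
    rw [← min_add_max |b.1| |b.2|, h2, h3]
    norm_num

/-- the position after the second claim of Maker, in the frame of the certificate -/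
theorem frame : WL (fun l => l = line.map (Equiv.addLeft ((15, 7) : Cell))) 15
    ([(15, 8), (15, 7)] : List Cell).toFinset [(16, 7)] := by
  refine WL.level cert_ok lev_ok0 (15, 5) (by decide) ?_
  refine WL.level cert_ok lev_ok1 (13, 5) (by decide) ?_
  refine WL.level cert_ok lev_ok2 (13, 7) (by decide) ?_
  refine WL.level cert_ok lev_ok3 (13, 6) (by decide) ?_
  refine WL.level cert_ok lev_ok4 (13, 4) (by decide) ?_
  refine WL.level cert_ok lev_ok5 (14, 3) (by decide) ?_
  refine WL.level cert_ok lev_ok6 (14, 2) (by decide) ?_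
  refine WL.level cert_ok lev_ok7 (0, 0) (by decide) ?_
  exact WL.of_X (by decide)

theorem origin : WL (fun l => l = line) 15 {(0, 1), (0, 0)} [(1, 0)] := by
  have h := frame.image' (preserves_add ((-15, -7) : Cell)) (Y := fun l => l = line) (by
    rintro l rfl
    decide)
  have e : (([(15, 8), (15, 7)] : List Cell).toFinset).image (Equiv.addLeft ((-15, -7) : Cell)) =
      {(0, 1), (0, 0)} := by decide
  have e2 : ([(16, 7)] : List Cell).map (Equiv.addLeft ((-15, -7) : Cell)) = [(1, 0)] := by decide
  rw [e, e2] at h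
  exact h

theorem start : WL OnLine 16 {(0, 0)} [] := by
  right; right
  intro b hb _
  rw [Finset.mem_singleton] at hb
  rw [List.nil_append]
  by_cases hadj : |b.1| + |b.2| = 1
  · obtain ⟨e, he, hs, h0, h1⟩ := exists_sym_of_adjacent hadj
    have h := origin.image' he (Y := OnLine) (by
      rintro l rfl
      exact ⟨e, hs, rfl⟩)
    rw [Finset.image_insert, Finset.image_singleton, List.map_singleton, h0, h1] at h
    refine ⟨e (0, 1), ?_, List.not_mem_nil, ?_, h⟩
    · rw [Finset.mem_singleton]
      intro h'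
      exact absurd (e.injective (h'.trans h0.symm)) (by decide)
    · intro h'
      exact absurd (e.injective (h'.trans h1.symm)) (by decide)
  · obtain ⟨m, g1, g2, g3⟩ := good_of_not_adjacent hb hadj
    refine ⟨m, g1, List.not_mem_nil, fun h => g2 (by rw [h]; exact Finset.mem_singleton_self _),
      WL.of_WB g3 ?_⟩
    simp

/-- Maker has a strategy, starting at `(0, 0)`, whose first 17 claims are all legal and which owns a copy
of Snaky after at most 17 claims, unless the first nine claims of Breaker are, up to a symmetry of the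
grid fixing `(0, 0)`, exactly the cells of `line` in their order. -/
theorem result : ∃ σ : Strategy, σ [] = (0, 0) ∧ ∀ b : ℕ → Cell, BreakerLegal σ b 16 →
    MakerLegal σ b 16 ∧ (OwnsCopy (makerCells σ b 17) ∨
      ∃ R : Cell → Cell, IsSignedPerm R ∧ (List.range 9).map b = line.map R) := by
  refine ⟨stratL OnLine 16 (0, 0), rfl, fun b hb => ?_⟩
  obtain ⟨h1, h2⟩ := wins_of_WL start hb
  refine ⟨h1, h2.imp id ?_⟩
  rintro ⟨k, -, R, hR, hk⟩
  have hlen := congrArg List.length hk
  rw [List.length_map, List.length_range, List.length_map] at hlen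
  have : k = 9 := hlen
  subst this
  exact ⟨R, hR, hk⟩

end Vale.Agent.Results.P062.ForcedLine
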