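import Vale.Agent.Snaky.FData.All
import Vale.Agent.Snaky.Line

/-!
# Snaky is a winner: Maker wins the unhandicapped game on the empty board
-/

namespace Vale.Agent.Results.P062.MakerWins

open Vale.Agent.Snaky Vale.Agent.Snaky.FD

theorem oct_bits : ∀ x < 17, ∀ y ≤ x, (x, y) ≠ (0, 0) →
    rootOct.testBit (239 + x + 32 * y) = true := by
  decide +kernel

theorem good_octant {c : Cell} (h0 : 0 ≤ c.2) (h1 : c.2 ≤ c.1) (h2 : c ≠ (0, 0)) : Good 17 c := by
  refine good_of_root cert_ok root_ok (by simp [rootT]) h2 ?_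
  intro h4 h5
  obtain ⟨x, y⟩ := c
  simp only at h0 h1 h4 h5 ⊢
  obtain ⟨x, rfl⟩ := Int.eq_ofNat_of_zero_le (h0.trans h1)
  obtain ⟨y, rfl⟩ := Int.eq_ofNat_of_zero_le h0
  refine ⟨by positivity, ?_⟩
  have e : ((239 : ℤ) + (x : ℤ) + 32 * (y : ℤ)).toNat = 239 + x + 32 * y := by omega
  rw [e]
  refine oct_bits x (by exact_mod_cast h4) y (by exact_mod_cast h1) ?_
  intro h
  obtain ⟨rfl, rfl⟩ := Prod.mk.inj h
  exact h2 rfl

theorem good_all {b : Cell} (h0 : b ≠ (0, 0)) : Good 17 b := by
  apply good_of_octant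
  apply good_octant
  · exact le_min (abs_nonneg _) (abs_nonneg _)
  · exact min_le_max
  · intro h
    have h2 : max |b.1| |b.2| = 0 := congrArg Prod.fst h
    have h3 : |b.1| ≤ 0 := h2 ▸ le_max_left _ _
    have h4 : |b.2| ≤ 0 := h2 ▸ le_max_right _ _
    exact h0 (Prod.ext (abs_nonpos_iff.1 h3) (abs_nonpos_iff.1 h4))

theorem start : WL (fun _ => False) 18 {(0, 0)} [] := by
  right; right
  intro b hb _
  rw [Finset.mem_singleton] at hb
  rw [List.nil_append]
  obtain ⟨m, g1, g2, g3⟩ := good_all hb
  refine ⟨m, g1, List.not_mem_nil, fun h => g2 (by rw [h]; exact Finset.mem_singleton_self _),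
    WL.of_WB g3 ?_⟩
  simp

/-- `stratL` always makes legal claims. -/
theorem legal (X : List Cell → Prop) (n : ℕ) (o : Cell) (b : ℕ → Cell) (N : ℕ) :
    MakerLegal (stratL X n o) b N := by
  intro k _
  cases k with
  | zero => simp [makerCells, breakerCells]
  | succ k =>
      rw [makerMove_stratL_succ]
      have h := replyL_fresh X (n - k - 1) (makerCells (stratL X n o) b (k + 1))
        ((List.range (k + 1)).map b)
      exact ⟨h.1, fun h' => h.2 (mem_range_map.2 h')⟩

/-- **Maker has a winning strategy for Snaky**, with no handicap, on the empty board `ℤ × ℤ`: a strategy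
`σ` all of whose claims are legal against every play of Breaker, and which owns an allowed copy of Snaky
after at most 19 claims against every Breaker whose claims are legal. -/
theorem result : ∃ σ : Strategy, ∀ b : ℕ → Cell,
    (∀ n, BreakerLegal σ b n → MakerLegal σ b n) ∧
    (BreakerLegal σ b 18 → OwnsCopy (makerCells σ b 19)) := by
  refine ⟨stratL (fun _ => False) 18 (0, 0), fun b => ⟨fun n _ => legal _ _ _ _ _, fun hb => ?_⟩⟩
  rcases (wins_of_WL start hb).2 with h | ⟨_, _, h⟩
  · exact h
  · exact h.elim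

end Vale.Agent.Results.P062.MakerWins
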