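import Vale.Agent.Snaky.Data.All

/-!
# Snaky, unhandicapped: Maker wins unless Breaker answers next to Maker's first cell
-/

namespace Vale.Agent.Results.P062.NonadjacentReply

open Vale.Agent.Snaky

theorem oct_bits : ∀ x < 17, ∀ y ≤ x, (x, y) ≠ (0, 0) → (x, y) ≠ (1, 0) →
    rootOct.testBit (239 + x + 32 * y) = true := by
  decide +kernel

theorem good_octant {c : Cell} (h0 : 0 ≤ c.2) (h1 : c.2 ≤ c.1) (h2 : c ≠ (0, 0))
    (h3 : c ≠ (1, 0)) : Good 11 c := by
  refine good_of_root cert_ok root_ok (by simp [rootT]) h2 ?_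
  intro h4 h5
  obtain ⟨x, y⟩ := c
  simp only at h0 h1 h4 h5 ⊢
  obtain ⟨x, rfl⟩ := Int.eq_ofNat_of_zero_le (h0.trans h1)
  obtain ⟨y, rfl⟩ := Int.eq_ofNat_of_zero_le h0
  refine ⟨by positivity, ?_⟩
  have e : ((239 : ℤ) + (x : ℤ) + 32 * (y : ℤ)).toNat = 239 + x + 32 * y := by omega
  rw [e]
  refine oct_bits x (by exact_mod_cast h4) y (by exact_mod_cast h1) ?_ ?_
  · intro h
    obtain ⟨rfl, rfl⟩ := Prod.mk.inj h
    exact h2 rfl
  · intro h
    obtain ⟨rfl, rfl⟩ := Prod.mk.inj h
    exact h3 rfl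

theorem good_of_not_adjacent {b : Cell} (h0 : b ≠ (0, 0)) (h1 : |b.1| + |b.2| ≠ 1) :
    Good 11 b := by
  apply good_of_octant
  apply good_octant
  · exact le_min (abs_nonneg _) (abs_nonneg _)
  · exact min_le_max
  · intro h
    have h2 : max |b.1| |b.2| = 0 := congrArg Prod.fst h
    have h3 : |b.1| ≤ 0 := h2 ▸ le_max_left _ _
    have h4 : |b.2| ≤ 0 := h2 ▸ le_max_right _ _
    exact h0 (Prod.ext (abs_nonpos_iff.1 h3) (abs_nonpos_iff.1 h4))
  · intro h
    have h2 : max |b.1| |b.2| = 1 := congrArg Prod.fst h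
    have h3 : min |b.1| |b.2| = 0 := congrArg Prod.snd h
    apply h1
    rw [← min_add_max |b.1| |b.2|, h2, h3]
    norm_num

/-- Maker has a strategy whose claims are all legal and which owns a copy of Snaky after at most
13 claims against every Breaker whose first claim does not share an edge with Maker's first cell. -/
theorem result : ∃ σ : Strategy, ∀ b : ℕ → Cell, BreakerLegal σ b 12 →
    |(b 0).1 - (makerMove σ b 0).1| + |(b 0).2 - (makerMove σ b 0).2| ≠ 1 →
    MakerLegal σ b 12 ∧ OwnsCopy (makerCells σ b 13) := by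
  refine ⟨strat 12 (0, 0), fun b hb hadj => ?_⟩
  have h0 : makerMove (strat 12 (0, 0)) b 0 = (0, 0) := makerMove_strat_zero 12 (0, 0) b
  rw [h0] at hadj
  have hb0 : b 0 ≠ (0, 0) := by
    have h := (hb 0 (by norm_num)).1
    intro h'
    apply h
    rw [h']
    have : makerCells (strat 12 (0, 0)) b 1 = {(0, 0)} := by
      simp [makerCells, makerMove, strat, st]
    rw [Nat.zero_add, this]
    simp
  have hg : Good 11 (b 0) := good_of_not_adjacent hb0 (by simpa using hadj)
  exact wins_of_reply hb hg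

end Vale.Agent.Results.P062.NonadjacentReply
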